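import Vale.Agent.P184.Main

namespace Vale.Agent.Results.P184.BassCG

/-- The Bass trace conjecture for complex group rings of arbitrary groups. -/
theorem result {G : Type*} [Group G] (q : ℕ)
    (e : Matrix (Fin q) (Fin q) (MonoidAlgebra ℂ G)) (he : e * e = e) :
    ∃ F : Finset (ConjClasses G), (∀ C ∈ F, ∀ g ∈ C.carrier, IsOfFinOrder g) ∧
      ∀ C ∉ F, HasSum (fun g : C.carrier => ∑ i, (e i i).coeff g) 0 :=
  Vale.Agent.P184.bass q e he

end Vale.Agent.Results.P184.BassCG
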